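import Vale.Agent.P171.Extra

open MeasureTheory Set Filter Topology

namespace Vale.Agent.Results.P171.Main

/-- Three-dimensional Euclidean space with its Euclidean norm. -/
abbrev Space := EuclideanSpace ℝ (Fin 3)

/-- The energy `U_N`: the sum of `φ(|x_i - x_j|)` over all pairs `i < j`. -/
noncomputable def pairEnergy (φ : ℝ → ℝ) (N : ℕ) (x : Fin N → Space) : ℝ :=
  ∑ i, ∑ j, if i < j then φ (dist (x i) (x j)) else 0

/-- `φ` is Borel measurable and locally bounded on `(0, ∞)`. -/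
def IsPairPotential (φ : ℝ → ℝ) : Prop :=
  Measurable (fun r : Set.Ioi (0 : ℝ) => φ r) ∧
    ∀ s t : ℝ, 0 < s → ∃ M : ℝ, ∀ r ∈ Set.Icc s t, |φ r| ≤ M

/-- Stability: `U_N ≥ -B N` for all `N` and all configurations of distinct points. -/
def IsStable (φ : ℝ → ℝ) : Prop :=
  ∃ B : ℝ, ∀ (N : ℕ) (x : Fin N → Space), Function.Injective x → -(B * N) ≤ pairEnergy φ N x

/-- Temperedness: `φ(r) ≤ C r^(-3-ε)` for all `r ≥ R₀`. -/
def IsTempered (φ : ℝ → ℝ) : Prop :=
  ∃ C ε R₀ : ℝ, 0 < C ∧ 0 < ε ∧ 0 < R₀ ∧ ∀ r : ℝ, R₀ ≤ r → φ r ≤ C * r ^ (-3 - ε)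

/-- `Λ_L^N`, where `Λ_L = [0, L]^3`. -/
def boxConf (L : ℝ) (N : ℕ) : Set (Fin N → Space) :=
  {x | ∀ (n : Fin N) (i : Fin 3), 0 ≤ x n i ∧ x n i ≤ L}

/-- The canonical partition function `Z_{L,N}(β)`. -/
noncomputable def canonZ (φ : ℝ → ℝ) (β L : ℝ) (N : ℕ) : ℝ :=
  (1 / (N.factorial : ℝ)) * ∫ x in boxConf L N, Real.exp (-β * pairEnergy φ N x)

/-- The grand canonical partition function `∑_N z^N Z_{L,N}(β)`. -/
noncomputable def grandZ (φ : ℝ → ℝ) (β z L : ℝ) : ℝ := ∑' N : ℕ, z ^ N * canonZ φ β L N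

/-- `P` is the pressure function `z ↦ Π(β, z)` on `(0, ∞)`: the defining integrals and series
converge and the thermodynamic limit exists and equals `P z`. -/
def IsPressure (φ : ℝ → ℝ) (β : ℝ) (P : ℝ → ℝ) : Prop :=
  (∀ (L : ℝ) (N : ℕ), IntegrableOn (fun x => Real.exp (-β * pairEnergy φ N x)) (boxConf L N)) ∧
  ∀ z : ℝ, 0 < z →
    (∀ L : ℝ, Summable fun N : ℕ => z ^ N * canonZ φ β L N) ∧
    Tendsto (fun L : ℝ => Real.log (grandZ φ β z L) / L ^ 3) atTop (𝓝 (P z))

/-- Phase transition in the sense (a): for some `β > 0` the pressure is not a differentiable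
function of `z > 0`. -/
def HasPressureTransition (φ : ℝ → ℝ) : Prop :=
  ∃ β : ℝ, 0 < β ∧ ∃ P : ℝ → ℝ, IsPressure φ β P ∧ ∃ z : ℝ, 0 < z ∧ ¬ DifferentiableAt ℝ P z

open Vale.Agent.P171 in
lemma pairEnergy_eq (φ : ℝ → ℝ) (N : ℕ) (x : Fin N → Space) :
    pairEnergy φ N x = energy (pv φ) x :=
  (energy_eq_lt (pv_symm φ) x).symm

open Vale.Agent.P171 in
lemma restrict_boxConf (L : ℝ) (N : ℕ) :
    (volume : Measure (Fin N → Space)).restrict (boxConf L N) =
      Measure.pi fun _ => (volume : Measure Space).restrict (hbox 0 L) := by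
  have h1 : boxConf L N = Set.univ.pi fun _ : Fin N => (cbox L : Set Space) := by
    ext x
    simp [boxConf, cbox, Set.mem_pi]
  rw [h1, volume_pi, Measure.restrict_congr_set
    (Measure.ae_eq_set_pi (I := Set.univ) (fun _ _ => cbox_ae_eq L)), Measure.restrict_pi_pi]

open Vale.Agent.P171 in
lemma lint_bolt (φ : ℝ → ℝ) (L : ℝ) (N : ℕ) :
    ∫⁻ x in boxConf L N, ENNReal.ofReal (Real.exp (-1 * pairEnergy φ N x)) =
      bInt ((volume : Measure Space).restrict (hbox 0 L)) (pv φ) N := by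
  rw [restrict_boxConf]
  unfold bInt bolt
  refine lintegral_congr fun x => ?_
  rw [pairEnergy_eq, neg_one_mul]

open Vale.Agent.P171 in
lemma measurable_weight {φ : ℝ → ℝ} (hφ : Measurable φ) (N : ℕ) :
    Measurable fun x : Fin N → Space => Real.exp (-1 * pairEnergy φ N x) := by
  simp_rw [pairEnergy_eq]
  exact ((energy_measurable (pv_measurable hφ)).const_mul _).exp

open Vale.Agent.P171 in
lemma base_restrict (z : NNReal) (L : ℝ) :
    (base z).restrict (hbox 0 L) =
      (z : ENNReal) • (volume : Measure Space).restrict (hbox 0 L) := by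
  unfold base
  rw [← Measure.restrict_smul]
  rfl

open Vale.Agent.P171 in
lemma finite_box (L : ℝ) : IsFiniteMeasure ((volume : Measure Space).restrict (hbox 0 L)) := by
  have h : (volume : Measure Space).restrict (hbox 0 L) = (base 1).restrict (hbox 0 L) := by
    rw [base_restrict]; simp
  rw [h]
  infer_instance

open Vale.Agent.P171 in
lemma term_eq {K : ℝ} {a : ℕ → ℝ} (h : Wadm K a) {z : ℝ} (hz : 0 < z) (L : ℝ) (N : ℕ) :
    z ^ N * canonZ (phi K a) 1 L N =
      (((N.factorial : ℕ) : ENNReal)⁻¹ *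
        bInt ((base z.toNNReal).restrict (hbox 0 L)) (pv (phi K a)) N).toReal := by
  have := finite_box L
  rw [base_restrict, bInt_smul _ _ _ ENNReal.coe_ne_top]
  unfold canonZ
  rw [integral_eq_lintegral_of_nonneg_ae (Eventually.of_forall fun x => (Real.exp_pos _).le)
    (measurable_weight (h.nice.phi_measurable K) N).aestronglyMeasurable, lint_bolt]
  rw [ENNReal.toReal_mul, ENNReal.toReal_mul, ENNReal.toReal_inv, ENNReal.toReal_natCast,
    ENNReal.toReal_pow, ENNReal.coe_toReal, Real.coe_toNNReal z hz.le]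
  ring

open Vale.Agent.P171 in
lemma Xb_ne_top {K : ℝ} {a : ℕ → ℝ} (h : Wadm K a) (z : NNReal) (L : ℝ) :
    ∑' N : ℕ, ((N.factorial : ℕ) : ENNReal)⁻¹ *
        bInt ((base z).restrict (hbox 0 L)) (pv (phi K a)) N ≠ ⊤ := by
  have h1 := (h.Xb_lt_top (z := z) L).ne
  unfold Xb at h1
  rwa [Xi_eq] at h1

open Vale.Agent.P171 in
lemma grandZ_eq {K : ℝ} {a : ℕ → ℝ} (h : Wadm K a) {z : ℝ} (hz : 0 < z) (L : ℝ) :
    grandZ (phi K a) 1 z L = (Xb K a z.toNNReal L).toReal := by
  unfold grandZ Xb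
  rw [Xi_eq, ENNReal.tsum_toReal_eq (fun N => ENNReal.ne_top_of_tsum_ne_top
    (Xb_ne_top h z.toNNReal L) N)]
  exact tsum_congr fun N => term_eq h hz L N

open Vale.Agent.P171 in
lemma summable_terms {K : ℝ} {a : ℕ → ℝ} (h : Wadm K a) {z : ℝ} (hz : 0 < z) (L : ℝ) :
    Summable fun N : ℕ => z ^ N * canonZ (phi K a) 1 L N := by
  refine (ENNReal.summable_toReal (Xb_ne_top h z.toNNReal L)).congr fun N => ?_
  exact (term_eq h hz L N).symm

open Vale.Agent.P171 in
lemma integrableOn_weight {K : ℝ} {a : ℕ → ℝ} (h : Wadm K a) (L : ℝ) (N : ℕ) :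
    IntegrableOn (fun x => Real.exp (-1 * pairEnergy (phi K a) N x)) (boxConf L N) := by
  refine ⟨(measurable_weight (h.nice.phi_measurable K) N).aestronglyMeasurable, ?_⟩
  rw [HasFiniteIntegral]
  have h1 : ∀ x : Fin N → Space, ‖Real.exp (-1 * pairEnergy (phi K a) N x)‖ₑ =
      ENNReal.ofReal (Real.exp (-1 * pairEnergy (phi K a) N x)) := fun x =>
    Real.enorm_of_nonneg (Real.exp_pos _).le
  simp_rw [h1]
  rw [lint_bolt]
  have h2 := ENNReal.ne_top_of_tsum_ne_top (Xb_ne_top h 1 L) N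
  rw [base_restrict, ENNReal.coe_one, one_smul] at h2
  by_contra hcon
  rw [not_lt_top_iff] at hcon
  apply h2
  rw [hcon, ENNReal.mul_top]
  exact ENNReal.inv_ne_zero.mpr (ENNReal.natCast_ne_top _)

open Vale.Agent.P171 in
lemma isPressure {K : ℝ} {a : ℕ → ℝ} (h : Wadm K a) :
    IsPressure (phi K a) 1 (fun z => press K a z.toNNReal) := by
  refine ⟨fun L N => integrableOn_weight h L N, fun z hz => ⟨summable_terms h hz, ?_⟩⟩
  have := h.tendsto_press (z := z.toNNReal)
  refine this.congr fun L => ?_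
  rw [grandZ_eq h hz]
  rfl

/-- There is a bounded, stable, tempered radial pair potential on three-dimensional space, which
moreover is absolutely integrable and is attractive beyond distance `2`, whose pressure is not
differentiable in the activity. -/
theorem result : ∃ φ : ℝ → ℝ,
    IsPairPotential φ ∧ IsStable φ ∧ IsTempered φ ∧ HasPressureTransition φ ∧
    (∃ M : ℝ, ∀ r : ℝ, |φ r| ≤ M) ∧ (∀ r : ℝ, 2 ≤ r → φ r ≤ 0) ∧
    Integrable (fun x : Space => φ ‖x‖) := by
  obtain ⟨a, μ, h, hnd⟩ := Vale.Agent.P171.exists_kink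
  set K := Vale.Agent.P171.KK
  refine ⟨Vale.Agent.P171.phi K a, ⟨?_, ?_⟩, ⟨K / 2, ?_⟩, ⟨1, 1, 2, one_pos, one_pos, two_pos, ?_⟩,
    ⟨1, one_pos, fun z => Vale.Agent.P171.press K a z.toNNReal, isPressure h, Real.exp μ,
      Real.exp_pos μ, ?_⟩, ⟨K, h.abs_phi_le⟩, fun r hr => Vale.Agent.P171.phi_nonpos h.nice hr,
      h.nice.integrable_phi K⟩
  · exact (h.nice.phi_measurable K).comp measurable_subtype_coe
  · exact fun s t _ => ⟨K, fun r _ => h.abs_phi_le r⟩
  · intro N x _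
    rw [pairEnergy_eq]
    have := h.energy_ge x
    linarith
  · intro r hr
    refine (Vale.Agent.P171.phi_nonpos h.nice hr).trans ?_
    have : 0 ≤ r := by linarith
    positivity
  · intro hd
    apply hnd
    have h1 : (fun ν => Vale.Agent.P171.press K a (Vale.Agent.P171.act ν)) =
        (fun z : ℝ => Vale.Agent.P171.press K a z.toNNReal) ∘ Real.exp := rfl
    rw [h1]
    exact DifferentiableAt.comp μ hd Real.differentiableAt_exp

end Vale.Agent.Results.P171.Main
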